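import Mathlib
import Vale.Agent.H52.LG.Final
import Vale.Agent.H52.DerivCor
import Vale.Agent.H53.EA.Periodic

/-!
# P192 (finitely presented Burnside problem): the obstructions proved here, in one statement

Four necessary conditions on an ordinary finite presentation of a periodic group.

1. Positive `p`-deficiency: if `∑ p ^ (-a i) < n - 1`, the group
   `⟨x_1, …, x_n | w_i ^ (p ^ a_i)⟩` has a normal subgroup of `p`-power index that maps onto
   the free group of rank two, and it has an element of infinite order.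
2. Euler criterion: if `π` maps `⟨x_1, …, x_n | w_i ^ e_i⟩` to a finite group `Q` and
   `∑ 1 / ord (π w_i) < n - 1 + 1 / |Q|`, the kernel of `π` has an element of infinite order.
3. If `m ≤ e (n - 1)` and every `w_i` has order `e` under some homomorphism of the free group
   to `ℤ / e`, then `⟨x_1, …, x_n | w_1 ^ e, …, w_m ^ e⟩` has an element of infinite order.
4. A periodic finitely presented group that is locally embeddable into elementary amenable
   groups is residually finite.

The four statements are those of the hand-ins `A0_PLarge`, `A_EulerCriterion` (two parts) and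
`C_LocallyEAResiduallyFinite` of this folder.
-/

namespace Vale.Agent.Results.P192.A00_Combined

universe u

theorem result :
    (∀ (p : ℕ), p.Prime → ∀ (n m : ℕ) (w : Fin m → FreeGroup (Fin n)) (a : Fin m → ℕ),
      ∑ i, (1 : ℚ) / (p : ℚ) ^ a i < (n : ℚ) - 1 →
      (∃ H : Subgroup (PresentedGroup (Set.range fun i => w i ^ p ^ a i)),
          H.Normal ∧ (∃ k : ℕ, H.index = p ^ k) ∧
            ∃ φ : H →* FreeGroup (Fin 2), Function.Surjective φ) ∧
      (∃ g : PresentedGroup (Set.range fun i => w i ^ p ^ a i), ¬ IsOfFinOrder g)) ∧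
    (∀ (n m : ℕ) (w : Fin m → FreeGroup (Fin n)) (e : Fin m → ℕ)
        (Q : Type) [Group Q] [Finite Q]
        (π : PresentedGroup (Set.range fun i => w i ^ e i) →* Q),
        ∑ i, (1 : ℚ) / (orderOf (π (PresentedGroup.mk _ (w i))) : ℚ) <
            (n : ℚ) - 1 + 1 / (Nat.card Q : ℚ) →
        ∃ g : PresentedGroup (Set.range fun i => w i ^ e i), π g = 1 ∧ ¬ IsOfFinOrder g) ∧
    (∀ (e n m : ℕ), 0 < e → 0 < n → ∀ w : Fin m → FreeGroup (Fin n),
        (∀ i, ∃ φ : FreeGroup (Fin n) →* Multiplicative (ZMod e), orderOf (φ (w i)) = e) →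
        m ≤ e * (n - 1) →
        ∃ g : PresentedGroup (Set.range fun i => w i ^ e), ¬ IsOfFinOrder g) ∧
    (∀ (G : Type u) [Group G] [Group.IsFinitelyPresented G],
      (∀ g : G, IsOfFinOrder g) →
      (∀ E : Finset G, ∃ (A : Type u) (_ : Group A) (ψ : G → A),
        Vale.Agent.H53.IsElementaryAmenable A ∧ Set.InjOn ψ (E : Set G) ∧
          ∀ g ∈ E, ∀ h ∈ E, g * h ∈ E → ψ (g * h) = ψ g * ψ h) →
      Group.ResiduallyFinite G) := by
  refine ⟨?_, ?_, ?_, ?_⟩
  · intro p hp n m w a hσ
    obtain ⟨H, hH, hidx, φ, hφ⟩ := Vale.Agent.H52.LG.large p hp n m w a hσ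
    refine ⟨⟨H, hH, hidx, φ, hφ⟩, ?_⟩
    obtain ⟨h, hh⟩ := hφ (FreeGroup.of 0)
    refine ⟨h.1, fun hfin => ?_⟩
    obtain ⟨j, hjpos, hj⟩ := isOfFinOrder_iff_pow_eq_one.mp hfin
    have h1 : h ^ j = 1 := Subtype.ext hj
    have h2 : (FreeGroup.of 0 : FreeGroup (Fin 2)) ^ j = 1 := by
      rw [← hh, ← map_pow, h1, map_one]
    let e : FreeGroup (Fin 2) →* Multiplicative ℤ :=
      FreeGroup.lift fun _ : Fin 2 => Multiplicative.ofAdd (1 : ℤ)
    have h3 : e (FreeGroup.of 0) ^ j = 1 := by
      rw [← map_pow, h2]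
      exact map_one e
    have h5 : e (FreeGroup.of 0) = Multiplicative.ofAdd (1 : ℤ) := FreeGroup.lift_apply_of
    rw [h5] at h3
    have h4 : j • (1 : ℤ) = 0 := h3
    rw [nsmul_eq_mul, mul_one] at h4
    exact absurd h4 (by exact_mod_cast hjpos.ne')
  · intro n m w e Q _ _ π h
    exact Vale.Agent.H52.Deriv.exists_not_isOfFinOrder' w e π h
  · intro e n m he hn w hw hm
    exact Vale.Agent.H52.Deriv.exists_not_isOfFinOrder_of_power_relators e n m he hn w hw hm
  · intro G _ _ hper hloc
    exact Vale.Agent.H53.EA.residuallyFinite_of_periodic_of_locally_embeddable G hper hloc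

end Vale.Agent.Results.P192.A00_Combined
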