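import Mathlib
import Vale.Agent.H52.LG.Final

/-!
# P192 (finitely presented Burnside problem): positive `p`-deficiency forces `p`-largeness

Let `p` be a prime and let `G = ⟨x₁, …, xₙ | w₁ ^ p ^ a₁, …, wₘ ^ p ^ aₘ⟩` be a finitely presented
group whose relators are written as `p`-power powers of arbitrary words (`aᵢ = 0` is allowed), with

  `∑ i, p ^ (-aᵢ) < n - 1`,

that is, the presentation has positive `p`-deficiency in the sense of Schlage-Puchta.  Then

* `G` is `p`-large: it has a normal subgroup whose index is a power of `p` and which maps onto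
  the free group of rank two, and
* `G` contains an element of infinite order.

So no periodic group (finite or infinite) has a finite presentation of positive `p`-deficiency.

The proof is in `Vale.Agent.H52.LG.Final`.  It runs the Baumslag-Pride band argument on labelled
Schreier graphs of a finite `p`-quotient with maximal order profile; the maximality is what makes
the relators whose roots have too small an order in the quotient harmless.
-/

namespace Vale.Agent.Results.P192.A0_PLarge

open Vale.Agent.H52.LG

theorem result :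
    ∀ (p : ℕ), p.Prime → ∀ (n m : ℕ) (w : Fin m → FreeGroup (Fin n)) (a : Fin m → ℕ),
      ∑ i, (1 : ℚ) / (p : ℚ) ^ a i < (n : ℚ) - 1 →
      (∃ H : Subgroup (PresentedGroup (Set.range fun i => w i ^ p ^ a i)),
          H.Normal ∧ (∃ k : ℕ, H.index = p ^ k) ∧
            ∃ φ : H →* FreeGroup (Fin 2), Function.Surjective φ) ∧
      (∃ g : PresentedGroup (Set.range fun i => w i ^ p ^ a i), ¬ IsOfFinOrder g) := by
  intro p hp n m w a hσ
  obtain ⟨H, hH, hidx, φ, hφ⟩ := large p hp n m w a hσ
  refine ⟨⟨H, hH, hidx, φ, hφ⟩, ?_⟩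
  obtain ⟨h, hh⟩ := hφ (FreeGroup.of 0)
  refine ⟨h.1, fun hfin => ?_⟩
  obtain ⟨j, hjpos, hj⟩ := isOfFinOrder_iff_pow_eq_one.mp hfin
  have h1 : h ^ j = 1 := Subtype.ext hj
  have h2 : (FreeGroup.of 0 : FreeGroup (Fin 2)) ^ j = 1 := by
    rw [← hh, ← map_pow, h1, map_one]
  let e : FreeGroup (Fin 2) →* Multiplicative ℤ :=
    FreeGroup.lift fun _ : Fin 2 => Multiplicative.ofAdd (1 : ℤ)
  have h3 : e (FreeGroup.of 0) ^ j = 1 := by
    rw [← map_pow, h2]
    exact map_one e
  have h5 : e (FreeGroup.of 0) = Multiplicative.ofAdd (1 : ℤ) := FreeGroup.lift_apply_of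
  rw [h5] at h3
  have h4 : j • (1 : ℤ) = 0 := h3
  rw [nsmul_eq_mul, mul_one] at h4
  exact absurd h4 (by exact_mod_cast hjpos.ne')

end Vale.Agent.Results.P192.A0_PLarge
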