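import Mathlib
import Vale.Agent.H52.DerivCor

/-!
# P192 (finitely presented Burnside problem): an Euler-characteristic criterion

Let `G = ⟨x₁, …, xₙ | w₁ ^ e₁, …, wₘ ^ eₘ⟩` be a finitely presented group whose relators are
written as powers (`eᵢ = 1` is allowed).

* If `π : G → Q` is a homomorphism to a finite group and
  `∑ᵢ 1 / ord (π wᵢ) < n - 1 + 1 / |Q|`, then `ker π` contains an element of infinite order.
  Hence every periodic finitely presented group satisfies the reverse inequality for every
  homomorphism to a finite group.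
* Explicit family: if `e ≥ 1`, `n ≥ 1`, `m ≤ e (n - 1)` and every `wᵢ` is mapped to an element of
  order `e` by some homomorphism of the free group to `ℤ/e`, then `⟨x₁, …, xₙ | w₁ ^ e, …, wₘ ^ e⟩`
  contains an element of infinite order.

The proof counts derivations of `G` into the rational regular representation of `Q`.
-/

namespace Vale.Agent.Results.P192.A_EulerCriterion

open Vale.Agent.H52.Deriv

theorem result :
    (∀ (n m : ℕ) (w : Fin m → FreeGroup (Fin n)) (e : Fin m → ℕ)
        (Q : Type) [Group Q] [Finite Q]
        (π : PresentedGroup (Set.range fun i => w i ^ e i) →* Q),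
        ∑ i, (1 : ℚ) / (orderOf (π (PresentedGroup.mk _ (w i))) : ℚ) <
            (n : ℚ) - 1 + 1 / (Nat.card Q : ℚ) →
        ∃ g : PresentedGroup (Set.range fun i => w i ^ e i), π g = 1 ∧ ¬ IsOfFinOrder g) ∧
    (∀ (e n m : ℕ), 0 < e → 0 < n → ∀ w : Fin m → FreeGroup (Fin n),
        (∀ i, ∃ φ : FreeGroup (Fin n) →* Multiplicative (ZMod e), orderOf (φ (w i)) = e) →
        m ≤ e * (n - 1) →
        ∃ g : PresentedGroup (Set.range fun i => w i ^ e), ¬ IsOfFinOrder g) :=
  ⟨fun _ _ w e _ _ _ π h => exists_not_isOfFinOrder' w e π h,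
   fun e n m he hn w hw hm => exists_not_isOfFinOrder_of_power_relators e n m he hn w hw hm⟩

end Vale.Agent.Results.P192.A_EulerCriterion
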