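import Vale.Agent.H53.EA.Periodic

/-!
# P192 (finitely presented Burnside problem): an obstruction

A finitely presented periodic group which is locally embeddable into elementary amenable groups
is residually finite.  Here `G` is *locally embeddable into elementary amenable groups* if for
every finite subset `E` of `G` there are an elementary amenable group `A` and a map `ψ : G → A`
which is injective on `E` and satisfies `ψ (g * h) = ψ g * ψ h` whenever `g`, `h` and `g * h` lie
in `E`.  Consequently an infinite finitely presented periodic group which is not residually
finite (for instance a simple one) admits no such local embeddings.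
-/

namespace Vale.Agent.Results.P192.C_LocallyEAResiduallyFinite

universe u

theorem result (G : Type u) [Group G] [Group.IsFinitelyPresented G]
    (hper : ∀ g : G, IsOfFinOrder g)
    (hloc : ∀ E : Finset G, ∃ (A : Type u) (_ : Group A) (ψ : G → A),
      Vale.Agent.H53.IsElementaryAmenable A ∧ Set.InjOn ψ (E : Set G) ∧
        ∀ g ∈ E, ∀ h ∈ E, g * h ∈ E → ψ (g * h) = ψ g * ψ h) :
    Group.ResiduallyFinite G :=
  Vale.Agent.H53.EA.residuallyFinite_of_periodic_of_locally_embeddable G hper hloc

end Vale.Agent.Results.P192.C_LocallyEAResiduallyFinite
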