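import Mathlib
import Vale.Agent.H52.PD.Main

/-!
# P192 (finitely presented Burnside problem): positive `p`-deficiency excludes periodicity

Let `p` be a prime and let `G = ⟨x₁, …, xₙ | w₁ ^ p ^ a₁, …, wₘ ^ p ^ aₘ⟩` be a finitely presented
group whose relators are written as `p`-power powers of arbitrary words (`aᵢ = 0` is allowed), with

  `∑ i, p ^ (-aᵢ) < n - 1`,

that is, the presentation has positive `p`-deficiency in the sense of Schlage-Puchta.  Then

* `G` has a normal subgroup of finite index that maps onto the infinite cyclic group, and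
* `G` contains an element of infinite order.

So no periodic group (finite or infinite) has a finite presentation of positive `p`-deficiency;
in particular the infinite periodic groups of positive `p`-deficiency are not finitely presented.

The proof is in `Vale.Agent.H52.PD.Main`: it combines a count of derivations into the rational
regular representation of a finite quotient with a maximality argument over finite quotients.
-/

namespace Vale.Agent.Results.P192.D_PDeficiency

open Vale.Agent.H52.PD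

theorem result :
    ∀ (p : ℕ), p.Prime → ∀ (n m : ℕ) (w : Fin m → FreeGroup (Fin n)) (a : Fin m → ℕ),
      ∑ i, (1 : ℚ) / (p : ℚ) ^ a i < (n : ℚ) - 1 →
      (∃ H : Subgroup (PresentedGroup (Set.range fun i => w i ^ p ^ a i)),
          H.Normal ∧ H.FiniteIndex ∧
            ∃ φ : H →* Multiplicative ℤ, Function.Surjective φ) ∧
      (∃ g : PresentedGroup (Set.range fun i => w i ^ p ^ a i), ¬ IsOfFinOrder g) := by
  intro p hp n m w a hσ
  obtain ⟨Q, hG, hF, π, Ψ, hlin, k, hk1, hk0⟩ := exists_derivation p hp w a hσ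
  obtain ⟨x, hx⟩ := Function.ne_iff.mp hk0
  have hx' : Ψ k 0 x ≠ 0 := hx
  -- the additive function on the kernel
  have hadd : ∀ h₁ h₂ : PresentedGroup (Set.range fun i => w i ^ p ^ a i), π h₁ = 1 →
      Ψ (h₁ * h₂) 0 x = Ψ h₁ 0 x + Ψ h₂ 0 x := by
    intro h₁ h₂ h1
    rw [delta_mul π Ψ hlin, h1, rho_one]
    rfl
  have hone : Ψ 1 0 x = 0 := by
    rw [delta_one]
    rfl
  have hinv : ∀ h : PresentedGroup (Set.range fun i => w i ^ p ^ a i), π h = 1 →
      Ψ h⁻¹ 0 x = - Ψ h 0 x := by
    intro h h1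
    have h2 := hadd h h⁻¹ h1
    rw [mul_inv_cancel, hone] at h2
    omega
  refine ⟨⟨π.ker, π.normal_ker, Subgroup.finiteIndex_ker π, ?_⟩, ?_⟩
  · -- the values form a subgroup of the integers, generated by some `d ≠ 0`
    let A : AddSubgroup ℤ :=
      { carrier := Set.range fun h : π.ker => Ψ h.1 0 x
        zero_mem' := ⟨1, hone⟩
        add_mem' := by
          rintro _ _ ⟨h₁, rfl⟩ ⟨h₂, rfl⟩
          exact ⟨h₁ * h₂, hadd h₁.1 h₂.1 (MonoidHom.mem_ker.mp h₁.2)⟩
        neg_mem' := by
          rintro _ ⟨h, rfl⟩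
          exact ⟨h⁻¹, hinv h.1 (MonoidHom.mem_ker.mp h.2)⟩ }
    obtain ⟨d, hd⟩ := Int.subgroup_cyclic A
    have hmemA : ∀ h : π.ker, Ψ h.1 0 x ∈ A := fun h => ⟨h, rfl⟩
    have hdvd : ∀ h : π.ker, d ∣ Ψ h.1 0 x := by
      intro h
      have h1 := hmemA h
      rw [hd, AddSubgroup.mem_closure_singleton] at h1
      obtain ⟨t, ht⟩ := h1
      exact ⟨t, by rw [← ht, smul_eq_mul, mul_comm]⟩
    have hd0 : d ≠ 0 := by
      intro h0
      obtain ⟨t, ht⟩ := hdvd ⟨k, MonoidHom.mem_ker.mpr hk1⟩
      rw [h0, zero_mul] at ht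
      exact hx' ht
    have hdA : d ∈ A := by
      rw [hd]
      exact AddSubgroup.subset_closure (Set.mem_singleton d)
    obtain ⟨hgen, hgen'⟩ := hdA
    have hgen'' : Ψ hgen.1 0 x = d := hgen'
    let φ : π.ker →* Multiplicative ℤ :=
      MonoidHom.mk' (fun h => Multiplicative.ofAdd (Ψ h.1 0 x / d)) (by
        intro h₁ h₂
        show Multiplicative.ofAdd (Ψ (h₁.1 * h₂.1) 0 x / d) =
          Multiplicative.ofAdd (Ψ h₁.1 0 x / d) * Multiplicative.ofAdd (Ψ h₂.1 0 x / d)
        rw [hadd h₁.1 h₂.1 (MonoidHom.mem_ker.mp h₁.2), Int.add_ediv_of_dvd_left (hdvd h₁)]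
        rfl)
    refine ⟨φ, ?_⟩
    intro t
    refine ⟨hgen ^ (Multiplicative.toAdd t), ?_⟩
    have h1 : φ hgen = Multiplicative.ofAdd 1 := by
      show Multiplicative.ofAdd (Ψ hgen.1 0 x / d) = Multiplicative.ofAdd 1
      rw [hgen'', Int.ediv_self hd0]
    rw [map_zpow, h1, ← ofAdd_zsmul, smul_eq_mul, mul_one]
    rfl
  · refine ⟨k, fun hfin => hk0 ?_⟩
    obtain ⟨j, hjpos, hj⟩ := isOfFinOrder_iff_pow_eq_one.mp hfin
    have h1 := delta_pow_of_ker π Ψ hlin k hk1 j
    rw [hj, delta_one] at h1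
    funext y
    have h2 : (j : ℤ) * Ψ k 0 y = 0 := by
      have := congrFun h1 y
      rw [Pi.smul_apply, nsmul_eq_mul] at this
      exact this.symm
    rcases mul_eq_zero.mp h2 with h3 | h3
    · exact absurd h3 (by exact_mod_cast hjpos.ne')
    · exact h3

end Vale.Agent.Results.P192.D_PDeficiency
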